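import Vale.Agent.P323.Final

open Vale.Agent.P323 in
theorem Vale.Agent.Results.P323.NoChoice.result :
    ∃ (M : Type) (E : M → M → Prop), IsZF E ∧ PP E ∧ ¬ AC E :=
  exists_zf_pp_nac
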